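import Vale.Agent.P210.M.Bridge

open scoped ContDiff Manifold
open Vale.Agent.P210

theorem Vale.Agent.Results.P210.ConfClass.result :
    ∀ n : ℕ, 3 ≤ n → ∀ (M : Type) [TopologicalSpace M] [ChartedSpace (E n) M]
      [IsManifold (𝓡 n) ∞ M] [T2Space M] [CompactSpace M] [ConnectedSpace M]
      (g : M → Matrix (Fin n) (Fin n) ℝ), Mf.IsRiem g → ∃ C : ℝ, ∀ (Ω : Set M) (f : M → ℝ),
        IsOpen Ω → IsConnected Ω → Mf.SmoothOn (E n) Ω f →
        Mf.Cplt Ω (Mf.mdist Ω (Mf.cmul f g)) → Mf.ScalGe Ω (Mf.cmul f g) →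
        Mf.Width Ω (Mf.mdist Ω (Mf.cmul f g)) (n - 2) C :=
  main4
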