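import Vale.Agent.P210.Main

open scoped ContDiff
open Vale.Agent.P210

theorem Vale.Agent.Results.P210.ConfFlat.result :
    ∀ n : ℕ, 3 ≤ n → ∃ C : ℝ, ∀ (Ω : Set (E n)) (f : E n → ℝ), IsOpen Ω → IsConnected Ω →
      ContDiffOn ℝ ∞ f Ω → Complete Ω (speed (conf f)) → (∀ x ∈ Ω, 1 ≤ scal (conf f) x) →
      WidthLe Ω (rdist Ω (speed (conf f))) (n - 2) C :=
  main
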