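import Vale.Agent.P210.G.Main

open scoped ContDiff
open Vale.Agent.P210 MeasureTheory

theorem Vale.Agent.Results.P210.ConfGen.result :
    ∀ n : ℕ, 3 ≤ n → ∀ L Λ : ℝ, ∃ C : ℝ, ∀ (Ω : Set (E n))
      (g : E n → Matrix (Fin n) (Fin n) ℝ) (f : E n → ℝ), IsOpen Ω → IsConnected Ω →
      (∀ i j, ContDiffOn ℝ ∞ (fun x => g x i j) Ω) → (∀ x ∈ Ω, (g x).IsSymm) →
      (∀ x ∈ Ω, ∀ v, ‖v‖ ≤ L * speed g x v ∧ speed g x v ≤ L * ‖v‖) →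
      ∫⁻ x in Ω, ENNReal.ofReal (scal g x) ^ ((n : ℝ) / 2) ≤ ENNReal.ofReal Λ →
      ContDiffOn ℝ ∞ f Ω → Complete Ω (speed (cm f g)) → (∀ x ∈ Ω, 1 ≤ scal (cm f g) x) →
      WidthLe Ω (rdist Ω (speed (cm f g))) (n - 2) C :=
  main2
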